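import Vale.Agent.helper5.LTMain

open MeasureTheory
open scoped ComplexConjugate Matrix ComplexOrder

namespace Vale.Agent.Results.P371.MatrixConstant

/-- The bound in terms of the form, with the numerical constant written as a multiple of the
semiclassical constant `L^cl_1 = 2 / (3 π)`. -/
lemma form_bound {m N : ℕ} {W : ℝ → Matrix (Fin m) (Fin m) ℂ} (hW : ∀ x, (W x).PosSemidef)
    (hWm : ∀ p q, Measurable fun x => W x p q)
    (hI : Integrable fun x => ∑ k, (hW x).isHermitian.eigenvalues k ^ (3 / 2 : ℝ))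
    {u u' : Fin N → ℝ → Fin m → ℂ}
    (H1 : ∀ j i, LT.IsH1 (fun x => u j x i) (fun x => u' j x i))
    (orth : ∀ j k, ∑ i, ∫ x, conj (u j x i) * u k x i = if j = k then 1 else 0) :
    (∀ j, Integrable fun x => (star (u j x) ⬝ᵥ (W x *ᵥ u j x)).re) ∧
      (∑ j, ∫ x, (star (u j x) ⬝ᵥ (W x *ᵥ u j x)).re) - (∑ j, ∑ i, ∫ x, ‖u' j x i‖ ^ 2)
        ≤ (1527 / 1000) * (2 / (3 * Real.pi)) *
            ∫ x, ∑ k, (hW x).isHermitian.eigenvalues k ^ (3 / 2 : ℝ) := by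
  obtain ⟨h1, h2⟩ := LT.main_bound hW hWm hI H1 orth
  refine ⟨h1, h2.trans ?_⟩
  have hpi : (0:ℝ) < Real.pi := Real.pi_pos
  have hc : (81 / 250 : ℝ) ≤ (1527 / 1000) * (2 / (3 * Real.pi)) := by
    rw [show (1527 / 1000 : ℝ) * (2 / (3 * Real.pi)) = 1018 / 1000 / Real.pi by field_simp; norm_num]
    rw [le_div_iff₀ hpi]
    have := Real.pi_lt_d4
    nlinarith
  have ht0 : 0 ≤ ∫ x, ∑ k, (hW x).isHermitian.eigenvalues k ^ (3 / 2 : ℝ) :=
    integral_nonneg fun x => Finset.sum_nonneg fun k _ =>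
      Real.rpow_nonneg ((hW x).eigenvalues_nonneg k) _
  exact mul_le_mul_of_nonneg_right hc ht0

/-- The eigenvalue identity for a weak eigenfunction of norm one. -/
lemma eigen_identity {m : ℕ} {W : ℝ → Matrix (Fin m) (Fin m) ℂ} (hW : ∀ x, (W x).PosSemidef)
    {ψ ψ' : ℝ → Fin m → ℂ} (H1 : ∀ i, LT.IsH1 (fun x => ψ x i) (fun x => ψ' x i))
    (hn : ∑ i, ∫ x, conj (ψ x i) * ψ x i = 1) {l : ℝ}
    (he : LT.IsWeakEigenfunction W ψ ψ' l) :
    (∑ i, ∫ x, ‖ψ' x i‖ ^ 2) - ∫ x, (star (ψ x) ⬝ᵥ (W x *ᵥ ψ x)).re = l := by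
  have h := he ψ ψ' H1
  rw [hn, mul_one] at h
  have h1 : ∀ i, ∫ x, conj (ψ' x i) * ψ' x i = ((∫ x, ‖ψ' x i‖ ^ 2 : ℝ) : ℂ) := by
    intro i
    rw [← integral_complex_ofReal]
    refine integral_congr_ae (Filter.Eventually.of_forall fun x => ?_)
    simp only
    rw [Complex.conj_mul']
    push_cast
    rfl
  have h2 : ∫ x, star (ψ x) ⬝ᵥ (W x *ᵥ ψ x) = ((∫ x, (star (ψ x) ⬝ᵥ (W x *ᵥ ψ x)).re : ℝ) : ℂ) := by
    rw [← integral_complex_ofReal]
    refine integral_congr_ae (Filter.Eventually.of_forall fun x => ?_)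
    simp only
    have him := (hW x).isHermitian.im_star_dotProduct_mulVec_self (ψ x)
    apply Complex.ext
    · simp
    · simp only [Complex.ofReal_im]
      exact him
  simp_rw [h1] at h
  rw [h2] at h
  apply Complex.ofReal_injective
  push_cast
  push_cast at h
  exact h

/-- **Lieb-Thirring inequality for matrix potentials at `γ = 1` with constant `1.527 L^cl_1`.**

Let `W` be a measurable function on the line with positive semidefinite `m × m` matrix values and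
`∫ tr W^{3/2} < ∞`, and let `u_1, …, u_N ∈ H¹(ℝ; ℂ^m)` be orthonormal in `L²(ℝ; ℂ^m)`, with weak
derivatives `u'_j`. Then the potential energies are finite and
`∑_j ∫ ⟨u_j, W u_j⟩ - ∑_j ∫ |u_j'|² ≤ 1.527 · (2/(3π)) · ∫ tr W^{3/2}`.
Moreover, if the `u_j` are weak eigenfunctions of `-d²/dx² - W` with eigenvalues `l_j ≤ 0`, then
`∑_j |l_j| ≤ 1.527 · (2/(3π)) · ∫ tr W^{3/2}`. Since `2/(3π)` is the semiclassical constant
`L^cl_1`, this says `L_1(m) ≤ 1.527 L^cl_1` for every `m`. -/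
theorem result {m N : ℕ} (W : ℝ → Matrix (Fin m) (Fin m) ℂ) (hW : ∀ x, (W x).PosSemidef)
    (hWm : ∀ p q, Measurable fun x => W x p q)
    (hI : Integrable fun x => ∑ k, (hW x).isHermitian.eigenvalues k ^ (3 / 2 : ℝ))
    (u u' : Fin N → ℝ → Fin m → ℂ)
    (H1 : ∀ j i, LT.IsH1 (fun x => u j x i) (fun x => u' j x i))
    (orth : ∀ j k, ∑ i, ∫ x, conj (u j x i) * u k x i = if j = k then 1 else 0) :
    (∀ j, Integrable fun x => (star (u j x) ⬝ᵥ (W x *ᵥ u j x)).re) ∧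
    (∑ j, ∫ x, (star (u j x) ⬝ᵥ (W x *ᵥ u j x)).re) - (∑ j, ∑ i, ∫ x, ‖u' j x i‖ ^ 2)
        ≤ (1527 / 1000) * (2 / (3 * Real.pi)) *
            ∫ x, ∑ k, (hW x).isHermitian.eigenvalues k ^ (3 / 2 : ℝ) ∧
    ∀ l : Fin N → ℝ, (∀ j, l j ≤ 0) → (∀ j, LT.IsWeakEigenfunction W (u j) (u' j) (l j)) →
      ∑ j, |l j| ≤ (1527 / 1000) * (2 / (3 * Real.pi)) *
            ∫ x, ∑ k, (hW x).isHermitian.eigenvalues k ^ (3 / 2 : ℝ) := by
  obtain ⟨h1, h2⟩ := form_bound hW hWm hI H1 orth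
  refine ⟨h1, h2, fun l hl he => le_trans (le_of_eq ?_) h2⟩
  have hid : ∀ j, (∑ i, ∫ x, ‖u' j x i‖ ^ 2) - ∫ x, (star (u j x) ⬝ᵥ (W x *ᵥ u j x)).re = l j := by
    intro j
    refine eigen_identity hW (H1 j) ?_ (he j)
    rw [orth j j]
    simp
  have habs : ∀ j, |l j| = (∫ x, (star (u j x) ⬝ᵥ (W x *ᵥ u j x)).re) - ∑ i, ∫ x, ‖u' j x i‖ ^ 2 := by
    intro j
    rw [abs_of_nonpos (hl j), ← hid j]
    ring
  simp_rw [habs]
  rw [Finset.sum_sub_distrib]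

end Vale.Agent.Results.P371.MatrixConstant
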